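import Vale.Agent.P371.Upper
import Vale.Agent.P371.Sharp
import Vale.Agent.P371.Consts

/-!
# P371 : the sharp one-dimensional Lieb-Thirring constant at `γ = 1` for all matrix sizes
-/

open Vale.Agent.P371

namespace Vale.Agent.Results.P371.GammaOne

theorem result :
    (∀ m : ℕ, 1 ≤ m →
      LT 1 m = ENNReal.ofReal (4 / (3 * √3 * Real.pi)) ∧
      LT 1 m = ENNReal.ofReal (Lone 1) ∧ LT 1 m = LT 1 1) ∧
    (∀ (m : ℕ) (γ : ℝ), 1 ≤ γ → LT γ m ≤ ENNReal.ofReal (2 / √3 * Lcl γ)) := by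
  have key : ∀ m : ℕ, 1 ≤ m → LT 1 m = ENNReal.ofReal (4 / (3 * √3 * Real.pi)) := fun m hm =>
    le_antisymm (LT_one_le m) (le_LT_one m hm)
  refine ⟨fun m hm => ⟨key m hm, ?_, ?_⟩, fun m γ hγ => ?_⟩
  · rw [key m hm, Lone_one]
  · rw [key m hm, key 1 le_rfl]
  · rcases hγ.eq_or_lt with h | h
    · subst h
      rw [two_div_sqrt_three]
      exact LT_one_le m
    · exact LT_le_of_one_lt m γ h

end Vale.Agent.Results.P371.GammaOne
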