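import Vale.Agent.P371.Full.Main
import Vale.Agent.P371.Full.Lower

/-!
# P371 : the sharp one-dimensional Lieb-Thirring constants for `1/2 < γ < 3/2`, all matrix sizes
-/

open Vale.Agent.P371

namespace Vale.Agent.Results.P371.SharpConstants

theorem result (γ : ℝ) (hγ : 1 / 2 < γ) (hγ' : γ < 3 / 2) (m : ℕ) (hm : 1 ≤ m) :
    LT γ m = ENNReal.ofReal (Lone γ) ∧ LT γ m = LT γ 1 := by
  have key : ∀ m : ℕ, 1 ≤ m → LT γ m = ENNReal.ofReal (Lone γ) := by
    intro m hm
    refine le_antisymm ?_ (Full.Lone_le_LT γ hγ m hm)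
    have h := Full.LT_le (ν := γ - 1 / 2) (by linarith) (by linarith) m
    have e : γ - 1 / 2 + 1 / 2 = γ := by ring
    rwa [e] at h
  exact ⟨key m hm, by rw [key m hm, key 1 le_rfl]⟩

end Vale.Agent.Results.P371.SharpConstants
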